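import Vale.Agent.P258.Bdl.B1

set_option linter.all false

/-!
The groups `SL(2, p)`, `p < 32`, with a code for each element, in which the kernel computes
products quickly.
-/

namespace Vale.Agent.P258.Gen

open Matrix

def cd (a b c d : ℕ) : ℕ :=
  Nat.add (Nat.add a (Nat.mul 32 b)) (Nat.add (Nat.mul 1024 c) (Nat.mul 32768 d))

def da (x : ℕ) : ℕ := Nat.land x 31
def db (x : ℕ) : ℕ := Nat.land (Nat.shiftRight x 5) 31
def dc (x : ℕ) : ℕ := Nat.land (Nat.shiftRight x 10) 31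
def dd (x : ℕ) : ℕ := Nat.shiftRight x 15

theorem da_eq (x : ℕ) : da x = x % 32 := Nat.and_two_pow_sub_one_eq_mod x 5
theorem db_eq (x : ℕ) : db x = x / 32 % 32 := by
  have h := Nat.and_two_pow_sub_one_eq_mod (Nat.shiftRight x 5) 5
  have h2 : Nat.shiftRight x 5 = x / 32 := Nat.shiftRight_eq_div_pow x 5
  unfold db
  rw [h2] at h ⊢
  exact h
theorem dc_eq (x : ℕ) : dc x = x / 1024 % 32 := by
  have h := Nat.and_two_pow_sub_one_eq_mod (Nat.shiftRight x 10) 5
  have h2 : Nat.shiftRight x 10 = x / 1024 := Nat.shiftRight_eq_div_pow x 10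
  unfold dc
  rw [h2] at h ⊢
  exact h
theorem dd_eq (x : ℕ) : dd x = x / 32768 := Nat.shiftRight_eq_div_pow x 15

theorem cd_eq (a b c d : ℕ) : cd a b c d = a + 32 * b + (1024 * c + 32768 * d) := rfl

theorem cd_dig {a b c : ℕ} (d : ℕ) (ha : a < 32) (hb : b < 32) (hc : c < 32) :
    da (cd a b c d) = a ∧ db (cd a b c d) = b ∧ dc (cd a b c d) = c ∧ dd (cd a b c d) = d := by
  rw [da_eq, db_eq, dc_eq, dd_eq, cd_eq]
  omega

theorem cd_self (x : ℕ) : cd (da x) (db x) (dc x) (dd x) = x := by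
  rw [da_eq, db_eq, dc_eq, dd_eq, cd_eq]
  omega

def mulN (p x y : ℕ) : ℕ :=
  cd (Nat.mod (Nat.add (Nat.mul (da x) (da y)) (Nat.mul (db x) (dc y))) p)
    (Nat.mod (Nat.add (Nat.mul (da x) (db y)) (Nat.mul (db x) (dd y))) p)
    (Nat.mod (Nat.add (Nat.mul (dc x) (da y)) (Nat.mul (dd x) (dc y))) p)
    (Nat.mod (Nat.add (Nat.mul (dc x) (db y)) (Nat.mul (dd x) (dd y))) p)

def invN (p x : ℕ) : ℕ :=
  cd (dd x) (Nat.mod (Nat.sub p (db x)) p) (Nat.mod (Nat.sub p (dc x)) p) (da x)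

def force {α : Type} (n : ℕ) (f : ℕ → α) : α :=
  Nat.rec (motive := fun _ => α) (f 0) (fun m _ => f (Nat.succ m)) n

theorem force_eq {α : Type} (n : ℕ) (f : ℕ → α) : force n f = f n := by
  cases n <;> rfl

def cjN (p x k : ℕ) : ℕ := force (mulN p (invN p k) x) fun u => mulN p u k

def ciN (p x k : ℕ) : ℕ := force (mulN p k x) fun u => mulN p u (invN p k)

def inv13 (p x : ℕ) : ℕ :=
  force (invN p x) fun u => force (mulN p u u) fun u2 => force (mulN p u2 u2) fun u4 =>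
    mulN p (mulN p (mulN p u4 u4) u4) u

/-- The group `SL(2, p)`. -/
abbrev G (p : ℕ) := SpecialLinearGroup (Fin 2) (ZMod p)

section

variable {p : ℕ}

/-- The code of an element of `SL(2, p)`. -/
def code (A : G p) : ℕ := cd (A.1 0 0).val (A.1 0 1).val (A.1 1 0).val (A.1 1 1).val

variable [NeZero p]

theorem vlt (hp : p ≤ 32) (a : ZMod p) : a.val < 32 := lt_of_lt_of_le (ZMod.val_lt a) hp

theorem code_dig (hp : p ≤ 32) (A : G p) : da (code A) = (A.1 0 0).val ∧
    db (code A) = (A.1 0 1).val ∧ dc (code A) = (A.1 1 0).val ∧ dd (code A) = (A.1 1 1).val :=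
  cd_dig _ (vlt hp _) (vlt hp _) (vlt hp _)

theorem val_two (a b c d : ZMod p) :
    (a * b + c * d).val = (a.val * b.val + c.val * d.val) % p := by
  rw [ZMod.val_add, ZMod.val_mul, ZMod.val_mul, ← Nat.add_mod]

theorem code_mul (hp : p ≤ 32) (A B : G p) : code (A * B) = mulN p (code A) (code B) := by
  obtain ⟨a1, a2, a3, a4⟩ := code_dig hp A
  obtain ⟨b1, b2, b3, b4⟩ := code_dig hp B
  unfold mulN
  rw [a1, a2, a3, a4, b1, b2, b3, b4]
  unfold code
  rw [SpecialLinearGroup.coe_mul]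
  simp only [Matrix.mul_apply, Fin.sum_univ_two, val_two]
  rfl

theorem code_inv (hp : p ≤ 32) (A : G p) : code A⁻¹ = invN p (code A) := by
  obtain ⟨a1, a2, a3, a4⟩ := code_dig hp A
  unfold invN
  rw [a1, a2, a3, a4]
  unfold code
  rw [SpecialLinearGroup.coe_inv, Matrix.adjugate_fin_two]
  simp only [Matrix.of_apply, Matrix.cons_val', Matrix.cons_val_zero, Matrix.cons_val_one,
    Matrix.cons_val_fin_one, ZMod.neg_val']
  rfl

theorem code_inj (hp : p ≤ 32) {A B : G p} (h : code A = code B) : A = B := by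
  obtain ⟨a1, a2, a3, a4⟩ := code_dig hp A
  obtain ⟨b1, b2, b3, b4⟩ := code_dig hp B
  rw [h] at a1 a2 a3 a4
  apply Subtype.ext
  ext i j
  fin_cases i <;> fin_cases j
  · exact ZMod.val_injective p (a1.symm.trans b1)
  · exact ZMod.val_injective p (a2.symm.trans b2)
  · exact ZMod.val_injective p (a3.symm.trans b3)
  · exact ZMod.val_injective p (a4.symm.trans b4)

theorem code_cj (hp : p ≤ 32) (x k : G p) : code (k⁻¹ * x * k) = cjN p (code x) (code k) := by
  unfold cjN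
  rw [force_eq, code_mul hp, code_mul hp, code_inv hp]

theorem code_ci (hp : p ≤ 32) (x k : G p) : code (k * x * k⁻¹) = ciN p (code x) (code k) := by
  unfold ciN
  rw [force_eq, code_mul hp, code_mul hp, code_inv hp]

theorem code_inv13 (hp : p ≤ 32) (x : G p) : code (x ^ (-(13 : ℤ))) = inv13 p (code x) := by
  have h : x ^ (-(13 : ℤ)) = (((x⁻¹ * x⁻¹) * (x⁻¹ * x⁻¹)) * ((x⁻¹ * x⁻¹) * (x⁻¹ * x⁻¹))) *
      ((x⁻¹ * x⁻¹) * (x⁻¹ * x⁻¹)) * x⁻¹ := by group
  rw [h]
  simp only [code_mul hp, code_inv hp]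
  unfold inv13
  simp only [force_eq]

/-- A test for codes of elements. -/
def okN (p x : ℕ) : Bool :=
  Nat.blt (da x) p && Nat.blt (db x) p && Nat.blt (dc x) p && Nat.blt (dd x) p &&
    Nat.beq (Nat.mod (Nat.mul (da x) (dd x)) p) (Nat.mod (Nat.add (Nat.mul (db x) (dc x)) 1) p)

theorem exists_of_ok (x : ℕ) (h : okN p x = true) : ∃ A : G p, code A = x := by
  unfold okN at h
  simp only [Bool.and_eq_true, Nat.blt_eq] at h
  obtain ⟨⟨⟨⟨h1, h2⟩, h3⟩, h4⟩, h5⟩ := h
  have h6 : da x * dd x % p = (db x * dc x + 1) % p := Nat.eq_of_beq_eq_true h5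
  have h7 : ((da x * dd x : ℕ) : ZMod p) = ((db x * dc x + 1 : ℕ) : ZMod p) :=
    (ZMod.natCast_eq_natCast_iff' _ _ _).2 h6
  push_cast at h7
  refine ⟨⟨!![(da x : ZMod p), (db x : ZMod p); (dc x : ZMod p), (dd x : ZMod p)], ?_⟩, ?_⟩
  · rw [Matrix.det_fin_two_of, h7]
    ring
  · change cd (da x : ZMod p).val (db x : ZMod p).val (dc x : ZMod p).val (dd x : ZMod p).val = x
    rw [ZMod.val_natCast_of_lt h1, ZMod.val_natCast_of_lt h2, ZMod.val_natCast_of_lt h3,
      ZMod.val_natCast_of_lt h4]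
    exact cd_self x

/-- `f` is true for the codes of all elements. -/
def allSL (p : ℕ) (f : ℕ → Bool) : Bool :=
  (List.range p).all fun a => (List.range p).all fun b => (List.range p).all fun c =>
    (List.range p).all fun d =>
      cond (Nat.beq (Nat.mod (Nat.mul a d) p) (Nat.mod (Nat.add (Nat.mul b c) 1) p))
        (force (cd a b c d) f) true

theorem allSL_sound {f : ℕ → Bool} (h : allSL p f = true) (A : G p) : f (code A) = true := by
  unfold allSL at h
  have h1 := List.all_eq_true.1 h _ (List.mem_range.2 (ZMod.val_lt (A.1 0 0)))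
  have h2 := List.all_eq_true.1 h1 _ (List.mem_range.2 (ZMod.val_lt (A.1 0 1)))
  have h3 := List.all_eq_true.1 h2 _ (List.mem_range.2 (ZMod.val_lt (A.1 1 0)))
  have h4 := List.all_eq_true.1 h3 _ (List.mem_range.2 (ZMod.val_lt (A.1 1 1)))
  have h5 : (A.1 0 0).val * (A.1 1 1).val % p = ((A.1 0 1).val * (A.1 1 0).val + 1) % p := by
    refine (ZMod.natCast_eq_natCast_iff' _ _ _).1 ?_
    push_cast
    simp only [ZMod.natCast_val, ZMod.cast_id', id_eq]
    have h := A.2
    rw [Matrix.det_fin_two] at h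
    linear_combination h
  have h6 : Nat.beq (Nat.mod (Nat.mul (A.1 0 0).val (A.1 1 1).val) p)
      (Nat.mod (Nat.add (Nat.mul (A.1 0 1).val (A.1 1 0).val) 1) p) = true :=
    Nat.beq_eq.mpr h5
  rw [h6, force_eq] at h4
  exact h4

end

end Vale.Agent.P258.Gen
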