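import Vale.Agent.P258.R2.H370.Sound
import Vale.Agent.P258.H331.Main

set_option linter.all false

namespace Vale.Agent.P258.Gen


theorem patRel_of_isCol {H : Type*} [Group H] (v : Fin 33 → H) (h : patternB.IsCol v) : PatRel v := by
  have g : ∀ a : Fin 33, v (Second.nextV a) = v (Second.aboveV a) ^ (-(Second.sgnV a : ℤ)) * v a *
      v (Second.aboveV a) ^ (Second.sgnV a : ℤ) := by
    intro a
    rw [← Second.nextV_eq, ← Second.aboveV_eq, ← Second.sgnV_eq]
    exact h a
  constructor
  · have := g 0; simp [Second.nextV, Second.aboveV, Second.sgnV] at this; rw [this]; group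
  · have := g 1; simp [Second.nextV, Second.aboveV, Second.sgnV] at this; rw [this]; group
  · have := g 2; simp [Second.nextV, Second.aboveV, Second.sgnV] at this; rw [this]; group
  · have := g 3; simp [Second.nextV, Second.aboveV, Second.sgnV] at this; exact this
  · have := g 4; simp [Second.nextV, Second.aboveV, Second.sgnV] at this; exact this
  · have := g 5; simp [Second.nextV, Second.aboveV, Second.sgnV] at this; exact this
  · have := g 6; simp [Second.nextV, Second.aboveV, Second.sgnV] at this; exact this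
  · have := g 7; simp [Second.nextV, Second.aboveV, Second.sgnV] at this; rw [this]; group
  · have := g 8; simp [Second.nextV, Second.aboveV, Second.sgnV] at this; exact this
  · have := g 9; simp [Second.nextV, Second.aboveV, Second.sgnV] at this; exact this
  · have := g 10; simp [Second.nextV, Second.aboveV, Second.sgnV] at this; exact this
  · have := g 11; simp [Second.nextV, Second.aboveV, Second.sgnV] at this; exact this
  · have := g 12; simp [Second.nextV, Second.aboveV, Second.sgnV] at this; exact this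
  · have := g 13; simp [Second.nextV, Second.aboveV, Second.sgnV] at this; exact this
  · have := g 14; simp [Second.nextV, Second.aboveV, Second.sgnV] at this; exact this
  · have := g 15; simp [Second.nextV, Second.aboveV, Second.sgnV] at this; exact this
  · have := g 16; simp [Second.nextV, Second.aboveV, Second.sgnV] at this; exact this
  · have := g 17; simp [Second.nextV, Second.aboveV, Second.sgnV] at this; exact this
  · have := g 18; simp [Second.nextV, Second.aboveV, Second.sgnV] at this; exact this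
  · have := g 19; simp [Second.nextV, Second.aboveV, Second.sgnV] at this; exact this
  · have := g 20; simp [Second.nextV, Second.aboveV, Second.sgnV] at this; exact this
  · have := g 21; simp [Second.nextV, Second.aboveV, Second.sgnV] at this; exact this
  · have := g 22; simp [Second.nextV, Second.aboveV, Second.sgnV] at this; exact this
  · have := g 23; simp [Second.nextV, Second.aboveV, Second.sgnV] at this; exact this
  · have := g 24; simp [Second.nextV, Second.aboveV, Second.sgnV] at this; rw [this]; group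
  · have := g 25; simp [Second.nextV, Second.aboveV, Second.sgnV] at this; rw [this]; group
  · have := g 26; simp [Second.nextV, Second.aboveV, Second.sgnV] at this; rw [this]; group
  · have := g 27; simp [Second.nextV, Second.aboveV, Second.sgnV] at this; exact this
  · have := g 28; simp [Second.nextV, Second.aboveV, Second.sgnV] at this; rw [this]; group
  · have := g 29; simp [Second.nextV, Second.aboveV, Second.sgnV] at this; rw [this]; group
  · have := g 30; simp [Second.nextV, Second.aboveV, Second.sgnV] at this; exact this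
  · have := g 31; simp [Second.nextV, Second.aboveV, Second.sgnV] at this; exact this
  · have := g 32; simp [Second.nextV, Second.aboveV, Second.sgnV] at this; rw [this]; group

theorem isCol_of_patRel {H : Type*} [Group H] (v : Fin 33 → H) (h : PatRel v) : patternB.IsCol v := by
  have g : ∀ a : Fin 33, v (Second.nextV a) = v (Second.aboveV a) ^ (-(Second.sgnV a : ℤ)) * v a *
      v (Second.aboveV a) ^ (Second.sgnV a : ℤ) := by
    intro a
    fin_cases a
    · have := h.f0; simp [Second.nextV, Second.aboveV, Second.sgnV]; rw [this]; group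
    · have := h.f1; simp [Second.nextV, Second.aboveV, Second.sgnV]; rw [this]; group
    · have := h.f2; simp [Second.nextV, Second.aboveV, Second.sgnV]; rw [this]; group
    · simpa [Second.nextV, Second.aboveV, Second.sgnV] using h.f3
    · simpa [Second.nextV, Second.aboveV, Second.sgnV] using h.f4
    · simpa [Second.nextV, Second.aboveV, Second.sgnV] using h.f5
    · simpa [Second.nextV, Second.aboveV, Second.sgnV] using h.f6
    · have := h.f7; simp [Second.nextV, Second.aboveV, Second.sgnV]; rw [this]; group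
    · simpa [Second.nextV, Second.aboveV, Second.sgnV] using h.f8
    · simpa [Second.nextV, Second.aboveV, Second.sgnV] using h.f9
    · simpa [Second.nextV, Second.aboveV, Second.sgnV] using h.f10
    · simpa [Second.nextV, Second.aboveV, Second.sgnV] using h.f11
    · simpa [Second.nextV, Second.aboveV, Second.sgnV] using h.f12
    · simpa [Second.nextV, Second.aboveV, Second.sgnV] using h.f13
    · simpa [Second.nextV, Second.aboveV, Second.sgnV] using h.f14
    · simpa [Second.nextV, Second.aboveV, Second.sgnV] using h.f15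
    · simpa [Second.nextV, Second.aboveV, Second.sgnV] using h.f16
    · simpa [Second.nextV, Second.aboveV, Second.sgnV] using h.f17
    · simpa [Second.nextV, Second.aboveV, Second.sgnV] using h.f18
    · simpa [Second.nextV, Second.aboveV, Second.sgnV] using h.f19
    · simpa [Second.nextV, Second.aboveV, Second.sgnV] using h.f20
    · simpa [Second.nextV, Second.aboveV, Second.sgnV] using h.f21
    · simpa [Second.nextV, Second.aboveV, Second.sgnV] using h.f22
    · simpa [Second.nextV, Second.aboveV, Second.sgnV] using h.f23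
    · have := h.f24; simp [Second.nextV, Second.aboveV, Second.sgnV]; rw [this]; group
    · have := h.f25; simp [Second.nextV, Second.aboveV, Second.sgnV]; rw [this]; group
    · have := h.f26; simp [Second.nextV, Second.aboveV, Second.sgnV]; rw [this]; group
    · simpa [Second.nextV, Second.aboveV, Second.sgnV] using h.f27
    · have := h.f28; simp [Second.nextV, Second.aboveV, Second.sgnV]; rw [this]; group
    · have := h.f29; simp [Second.nextV, Second.aboveV, Second.sgnV]; rw [this]; group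
    · simpa [Second.nextV, Second.aboveV, Second.sgnV] using h.f30
    · simpa [Second.nextV, Second.aboveV, Second.sgnV] using h.f31
    · have := h.f32; simp [Second.nextV, Second.aboveV, Second.sgnV]; rw [this]; group
  intro a
  change Fin 33 at a
  have h1 := g a
  rw [← Second.nextV_eq a, ← Second.aboveV_eq a, ← Second.sgnV_eq a] at h1
  exact h1

theorem arc_term {H : Type*} [Group H] (v : Fin 33 → H) (b : Fin 33) :
    v (patternB.above b) ^ ((patternB.sgn b : ℤˣ) : ℤ) = v (Second.aboveV b) ^ (Second.sgnV b : ℤ) := by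
  rw [Second.aboveV_eq, Second.sgnV_eq]

theorem lonVal_K {H : Type*} [Group H] (v : Fin 33 → H) : patternB.lonVal v patternBK = lamB v := by
  have h : (fun b : Fin 33 => v (patternB.above b) ^ ((patternB.sgn b : ℤˣ) : ℤ)) =
      fun b => v (Second.aboveV b) ^ (Second.sgnV b : ℤ) := funext (arc_term v)
  have h1 : (List.map (fun b : Fin 33 => v (patternB.above b) ^ ((patternB.sgn b : ℤˣ) : ℤ))
      [0, 1, 2, 3, 4, 5, 6, 7, 8, 9, 10, 11, 12, 13, 14, 15, 16, 17, 18, 19, 20, 21, 22, 23, 24,
        25, 26, 27, 28, 29, 30]).prod =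
      v 26 ^ (-1 : ℤ) * (v 25 ^ (-1 : ℤ) * (v 31 ^ (-1 : ℤ) * (v 11 ^ (1 : ℤ) * (v 10 ^ (1 : ℤ) *
        (v 9 ^ (1 : ℤ) * (v 8 ^ (1 : ℤ) * (v 29 ^ (-1 : ℤ) * (v 6 ^ (1 : ℤ) * (v 5 ^ (1 : ℤ) * (v
        4 ^ (1 : ℤ) * (v 3 ^ (1 : ℤ) * (v 22 ^ (1 : ℤ) * (v 21 ^ (1 : ℤ) * (v 20 ^ (1 : ℤ) * (v 19
        ^ (1 : ℤ) * (v 18 ^ (1 : ℤ) * (v 0 ^ (1 : ℤ) * (v 16 ^ (1 : ℤ) * (v 15 ^ (1 : ℤ) * (v 14 ^
        (1 : ℤ) * (v 13 ^ (1 : ℤ) * (v 12 ^ (1 : ℤ) * (v 31 ^ (1 : ℤ) * (v 2 ^ (-1 : ℤ) * (v 1 ^
        (-1 : ℤ) * (v 0 ^ (-1 : ℤ) * (v 7 ^ (1 : ℤ) * (v 8 ^ (-1 : ℤ) * (v 7 ^ (-1 : ℤ) * (v 17 ^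
        (1 : ℤ) * (1))))))))))))))))))))))))))))))) := by
    rw [h]
    rfl
  have h3 := lonVal_eq (D := patternB) v patternBK _ _ _ Second.walk_K Second.writhe_K h1
  have h2 : v patternBK = v 0 := rfl
  rw [h2] at h3
  rw [h3]
  simp only [lamB, zpow_one, zpow_neg_one, mul_one, mul_assoc]

theorem lonVal_E {H : Type*} [Group H] (v : Fin 33 → H) : patternB.lonVal v patternBE = v 24 * (v 2)⁻¹ := by
  have h : (fun b : Fin 33 => v (patternB.above b) ^ ((patternB.sgn b : ℤˣ) : ℤ)) =
      fun b => v (Second.aboveV b) ^ (Second.sgnV b : ℤ) := funext (arc_term v)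
  have h1 : (List.map (fun b : Fin 33 => v (patternB.above b) ^ ((patternB.sgn b : ℤˣ) : ℤ))
      [31, 32]).prod = v 24 ^ (1 : ℤ) * (v 2 ^ (-1 : ℤ) * (1)) := by
    rw [h]
    rfl
  have h3 := lonVal_eq (D := patternB) v patternBE _ _ _ Second.walk_E Second.writhe_E h1
  rw [h3]
  simp only [zpow_one, zpow_neg_one, mul_one, neg_zero, zpow_zero]


/-- Data for the enumeration in `SL(2, p)`: `w` conjugates an element to the representative
`comp l` of its class `l = lab x`; `cl`, `cen`, `rp`: the codes of the elements of the class, of the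
centralizer of the representative, and of representatives of the class under the centralizer. -/
structure Dat where
  w : ℕ → ℕ
  lab : ℕ → ℕ
  comp : ℕ → ℕ
  ls : List ℕ
  cl : ℕ → List ℕ
  cen : ℕ → List ℕ
  rp : ℕ → List ℕ

def inN (x : ℕ) (l : List ℕ) : Bool := l.any fun y => Nat.beq x y

theorem mem_of_inN {x : ℕ} {l : List ℕ} (h : inN x l = true) : x ∈ l := by
  obtain ⟨y, hy, e⟩ := List.any_eq_true.1 h
  rw [Nat.eq_of_beq_eq_true e]
  exact hy

def trN (p x : ℕ) : ℕ := Nat.mod (Nat.add (da x) (dd x)) p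

def factA (p : ℕ) (D : Dat) : Bool :=
  allSL p fun x => Nat.beq (mulN p x x) 32769 || force (D.w x) fun y => force (D.lab x) fun l =>
    okN p y && Nat.beq (mulN p y x) (mulN p (D.comp l) y) && inN x (D.cl l) && inN l D.ls

def factO (p : ℕ) (D : Dat) : Bool := D.ls.all fun l => okN p (D.comp l)

def factB1 (p : ℕ) (D : Dat) (l k : ℕ) : Bool :=
  allSL p fun x => !(Nat.beq (mulN p (D.comp l) x) (mulN p x (D.comp k))) ||
    (Nat.beq l k && inN x (D.cen l))

def factB (p : ℕ) (D : Dat) : Bool :=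
  D.ls.all fun l => D.ls.all fun k =>
    cond (Nat.beq (trN p (D.comp l)) (trN p (D.comp k))) (factB1 p D l k) true

def factC (p : ℕ) (D : Dat) : Bool :=
  D.ls.all fun l => (D.cl l).all fun x => (D.cen l).any fun c =>
    okN p c && Nat.beq (mulN p (D.comp l) c) (mulN p c (D.comp l)) && inN (ciN p x c) (D.rp l)

section

variable {p : ℕ} [NeZero p] {D : Dat}

theorem trN_code (hp : p ≤ 32) (A : G p) : trN p (code A) = (Matrix.trace A.1).val := by
  obtain ⟨h1, _, _, h4⟩ := code_dig hp A
  unfold trN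
  rw [h1, h4, Matrix.trace_fin_two, ZMod.val_add]
  rfl

theorem trN_conj (hp : p ≤ 32) {x y k : G p} (h : y = k⁻¹ * x * k) :
    trN p (code y) = trN p (code x) := by
  rw [trN_code hp, trN_code hp, h]
  congr 1
  have h1 : (k⁻¹ * x * k).1 = (k⁻¹ * x).1 * k.1 := rfl
  have h2 : x.1 = k.1 * (k⁻¹ * x).1 := by
    have : x = k * (k⁻¹ * x) := by group
    exact congrArg Subtype.val this
  rw [h1, Matrix.trace_mul_comm, ← h2]

theorem getW (hp : p ≤ 32) (h1 : 1 < p) (fA : factA p D = true) (fO : factO p D = true)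
    {A : G p} (h : A * A ≠ 1) : ∃ W C : G p, code W = D.w (code A) ∧
      code C = D.comp (D.lab (code A)) ∧ W * A = C * W ∧ code A ∈ D.cl (D.lab (code A)) ∧
      D.lab (code A) ∈ D.ls := by
  have h2 := allSL_sound fA A
  rw [Bool.or_eq_true] at h2
  rcases h2 with h2 | h2
  · exfalso
    apply h
    apply code_inj hp
    rw [code_mul hp, code_one h1]
    exact Nat.eq_of_beq_eq_true h2
  · rw [force_eq, force_eq] at h2
    simp only [Bool.and_eq_true] at h2
    obtain ⟨⟨⟨h3, h4⟩, h5⟩, h6⟩ := h2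
    obtain ⟨W, hW⟩ := exists_of_ok _ h3
    have h7 := List.all_eq_true.1 fO _ (mem_of_inN h6)
    obtain ⟨C, hC⟩ := exists_of_ok _ h7
    refine ⟨W, C, hW, hC, ?_, mem_of_inN h5, mem_of_inN h6⟩
    apply code_inj hp
    rw [code_mul hp, code_mul hp, hW, hC]
    exact Nat.eq_of_beq_eq_true h4

theorem conj_label (hp : p ≤ 32) (h1 : 1 < p) (fA : factA p D = true) (fO : factO p D = true)
    (fB : factB p D = true) {g h y : G p} (hg : g * g ≠ 1) (hy : h = y⁻¹ * g * y) :
    D.lab (code h) = D.lab (code g) ∧ ∃ c ∈ D.cen (D.lab (code g)),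
      code y = mulN p (mulN p (invN p (D.w (code g))) c) (D.w (code h)) := by
  have hh : h * h ≠ 1 := by
    intro e
    apply hg
    have : g * g = y * (h * h) * y⁻¹ := by rw [hy]; group
    rw [this, e]; group
  obtain ⟨Wg, Cg, hWg, hCg, eg, _, lg⟩ := getW hp h1 fA fO hg
  obtain ⟨Wh, Ch, hWh, hCh, eh, _, lh⟩ := getW hp h1 fA fO hh
  have eg' : g = Wg⁻¹ * Cg * Wg := by rw [mul_assoc, ← eg]; group
  have eh' : h = Wh⁻¹ * Ch * Wh := by rw [mul_assoc, ← eh]; group
  have t1 : trN p (code Ch) = trN p (code Cg) := by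
    have a1 := trN_conj hp eg'
    have a2 := trN_conj hp eh'
    have a3 := trN_conj hp hy
    rw [← a1, ← a2, a3]
  have b1 := List.all_eq_true.1 fB _ lg
  have b2 := List.all_eq_true.1 b1 _ lh
  rw [hCg, hCh] at t1
  have b3 : Nat.beq (trN p (D.comp (D.lab (code g)))) (trN p (D.comp (D.lab (code h)))) = true :=
    Nat.beq_eq.mpr t1.symm
  rw [b3, cond_true] at b2
  have b4 := allSL_sound b2 (Wg * y * Wh⁻¹)
  have b5 : Cg * (Wg * y * Wh⁻¹) = Wg * y * Wh⁻¹ * Ch := by
    have e1 : Wh⁻¹ * Ch = h * Wh⁻¹ := by rw [eh']; group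
    calc Cg * (Wg * y * Wh⁻¹) = Wg * g * y * Wh⁻¹ := by rw [eg']; group
      _ = Wg * y * (h * Wh⁻¹) := by rw [hy]; group
      _ = Wg * y * Wh⁻¹ * Ch := by rw [← e1]; group
  have b6 : Nat.beq (mulN p (D.comp (D.lab (code g))) (code (Wg * y * Wh⁻¹)))
      (mulN p (code (Wg * y * Wh⁻¹)) (D.comp (D.lab (code h)))) = true := by
    rw [← hCg, ← hCh, ← code_mul hp, ← code_mul hp, b5]
    exact Nat.beq_eq.mpr rfl
  rw [b6] at b4
  simp only [Bool.not_true, Bool.false_or, Bool.and_eq_true] at b4
  obtain ⟨b7, b8⟩ := b4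
  refine ⟨(Nat.eq_of_beq_eq_true b7).symm, _, mem_of_inN b8, ?_⟩
  rw [← hWg, ← hWh, ← code_inv hp, ← code_mul hp, ← code_mul hp]
  congr 1
  group

theorem lab_next (hp : p ≤ 32) (h1 : 1 < p) (fA : factA p D = true) (fO : factO p D = true)
    (fB : factB p D = true) (P : Diagram) (ρ : Fin P.n → G p) (h : P.IsCol ρ) (a : Fin P.n)
    (ha : ρ a * ρ a ≠ 1) : D.lab (code (ρ (P.next a))) = D.lab (code (ρ a)) ∧
      ρ (P.next a) * ρ (P.next a) ≠ 1 := by
  have h2 : ρ (P.next a) = (ρ (P.above a) ^ (P.sgn a : ℤ))⁻¹ * ρ a *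
      (ρ (P.above a) ^ (P.sgn a : ℤ)) := by
    rw [h a, zpow_neg]
  refine ⟨(conj_label hp h1 fA fO fB ha h2).1, fun e => ha ?_⟩
  have h3 : ρ a * ρ a = (ρ (P.above a) ^ (P.sgn a : ℤ)) * (ρ (P.next a) * ρ (P.next a)) *
      (ρ (P.above a) ^ (P.sgn a : ℤ))⁻¹ := by
    rw [h2]; group
  rw [h3, e]; group

theorem lab_same (hp : p ≤ 32) (h1 : 1 < p) (fA : factA p D = true) (fO : factO p D = true)
    (fB : factB p D = true) (P : Diagram) (ρ : Fin P.n → G p) (h : P.IsCol ρ) {a b : Fin P.n}
    (hab : P.SameComponent a b) (ha : ρ a * ρ a ≠ 1) :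
    D.lab (code (ρ b)) = D.lab (code (ρ a)) ∧ ρ b * ρ b ≠ 1 := by
  obtain ⟨i, rfl⟩ := hab
  induction i with
  | zero => exact ⟨rfl, ha⟩
  | succ i ih =>
    rw [Function.iterate_succ_apply']
    obtain ⟨e1, e2⟩ := lab_next hp h1 fA fO fB P ρ h _ ih.2
    exact ⟨e1.trans ih.1, e2⟩

theorem key (hp : p ≤ 32) (h1 : 1 < p) (fA : factA p D = true) (fO : factO p D = true)
    (fB : factB p D = true) (fC : factC p D = true) (m : Bool)
    (fD : ∀ l ∈ D.ls, st0 m p D.w (D.comp l) (D.cl l) (D.cen l) (D.rp l) = true)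
    (ρ : Fin 33 → G p) (h : patternB.IsCol ρ)
    (hE : patternB.lonVal ρ patternBE = 1 → ρ 31 = 1)
    (hl : cond m (ρ 0 * ρ 0 * patternB.lonVal ρ patternBK = 1)
      (ρ 0 * ρ 0 = patternB.lonVal ρ patternBK)) : ρ 0 * ρ 0 = 1 := by
  by_contra hne
  have hlab : ∀ b : Fin 33, b.val < 31 → D.lab (code (ρ b)) = D.lab (code (ρ 0)) ∧
      ρ b * ρ b ≠ 1 := fun b hb =>
    lab_same hp h1 fA fO fB patternB ρ h ((Second.comp_K b).2 hb) hne
  obtain ⟨W, C, hW, hC, eW, mW, lW⟩ := getW hp h1 fA fO (hlab 7 (by decide)).2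
  -- conjugating by `W`
  set x : G p := W * ρ 29 * W⁻¹ with hx
  have hx29 : D.lab (code x) = D.lab (code (ρ 29)) :=
    (conj_label hp h1 fA fO fB (g := ρ 29) (h := x) (y := W⁻¹) (hlab 29 (by decide)).2
      (by rw [hx]; group)).1
  have hxx : x * x ≠ 1 := by
    intro e
    apply (hlab 29 (by decide)).2
    have : ρ 29 * ρ 29 = W⁻¹ * (x * x) * W := by rw [hx]; group
    rw [this, e]; group
  obtain ⟨_, _, _, _, _, mx, _⟩ := getW hp h1 fA fO hxx
  have hℓ : D.lab (code x) = D.lab (code (ρ 7)) := by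
    rw [hx29, (hlab 29 (by decide)).1, (hlab 7 (by decide)).1]
  rw [hℓ] at mx
  have c1 := List.all_eq_true.1 fC _ lW
  have c2 := List.all_eq_true.1 c1 _ mx
  obtain ⟨c, hc, c3⟩ := List.any_eq_true.1 c2
  simp only [Bool.and_eq_true] at c3
  obtain ⟨⟨c4, c5⟩, c6⟩ := c3
  obtain ⟨Z, hZ⟩ := exists_of_ok c c4 (p := p)
  have hZC : C * Z = Z * C := by
    apply code_inj hp
    rw [code_mul hp, code_mul hp, hZ, hC]
    exact Nat.eq_of_beq_eq_true c5
  set V : G p := Z * W with hV
  let φ : G p →* G p := (MulAut.conj V).toMonoidHom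
  have hφ : ∀ g, φ g = V * g * V⁻¹ := fun g => by simp [φ]
  have hφinj : Function.Injective φ := (MulAut.conj V).injective
  let v : Fin 33 → G p := fun a => φ (ρ a)
  have hv : patternB.IsCol v := Diagram.IsCol.map patternB h φ
  have hP : PatRel v := patRel_of_isCol v hv
  have hEv : v 24 * (v 2)⁻¹ = 1 → v 31 = 1 := by
    intro h1
    have h2 : patternB.lonVal v patternBE = 1 := by rw [lonVal_E]; exact h1
    have h3 : patternB.lonVal v patternBE = φ (patternB.lonVal ρ patternBE) :=
      Diagram.lonVal_map patternB ρ φ patternBE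
    rw [h3] at h2
    have h4 : patternB.lonVal ρ patternBE = 1 := hφinj (by rw [h2, map_one])
    change φ (ρ 31) = 1
    rw [hE h4, map_one]
  have hlv : cond m (v 0 * v 0 * lamB v = 1) (v 0 * v 0 = lamB v) := by
    rw [← lonVal_K]
    have h3 : patternB.lonVal v patternBK = φ (patternB.lonVal ρ patternBK) :=
      Diagram.lonVal_map patternB ρ φ patternBK
    rw [h3]
    change cond m (φ (ρ 0) * φ (ρ 0) * φ (patternB.lonVal ρ patternBK) = 1)
      (φ (ρ 0) * φ (ρ 0) = φ (patternB.lonVal ρ patternBK))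
    rw [← map_mul, ← map_mul]
    cases m
    · simp only [cond_false] at hl ⊢
      rw [hl]
    · simp only [cond_true] at hl ⊢
      rw [hl, map_one]
  have hlv2 : ∀ b : Fin 33, b.val < 31 → D.lab (code (v b)) = D.lab (code (ρ 7)) ∧
      v b * v b ≠ 1 := by
    intro b hb
    have e1 := conj_label hp h1 fA fO fB (g := ρ b) (h := v b) (y := V⁻¹) (hlab b hb).2
      (by change φ (ρ b) = _; rw [hφ]; group)
    refine ⟨by rw [e1.1, (hlab b hb).1, (hlab 7 (by decide)).1], fun e => (hlab b hb).2 ?_⟩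
    have : φ (ρ b * ρ b) = 1 := by rw [map_mul]; exact e
    exact hφinj (by rw [this, map_one])
  have hv7 : v 7 = C := by
    change φ (ρ 7) = _
    rw [hφ, hV]
    have e1 : W * ρ 7 * W⁻¹ = C := by rw [eW]; group
    calc Z * W * ρ 7 * (Z * W)⁻¹ = Z * (W * ρ 7 * W⁻¹) * Z⁻¹ := by group
      _ = C * Z * Z⁻¹ := by rw [e1, hZC]
      _ = C := by group
  have h29 : code (v 29) ∈ D.rp (D.lab (code (ρ 7))) := by
    have e1 : v 29 = Z * x * Z⁻¹ := by
      change φ (ρ 29) = _
      rw [hφ, hV, hx]; group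
    rw [e1, code_ci hp, hZ]
    exact mem_of_inN c6
  have h23 : code (v 23) ∈ D.cl (D.lab (code (ρ 7))) := by
    obtain ⟨_, _, _, _, _, m1, _⟩ := getW hp h1 fA fO (hlv2 23 (by decide)).2
    rwa [(hlv2 23 (by decide)).1] at m1
  have hc' := (conj_label hp h1 fA fO fB (hlv2 23 (by decide)).2 hP.f23).2
  rw [(hlv2 23 (by decide)).1] at hc'
  refine sound hp h1 m D.w _ _ _ v hP hEv h29 h23 hc' ?_ hlv
  rw [hv7, hC]
  exact fD _ lW

end

end Vale.Agent.P258.Gen
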