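import Vale.Agent.P258.R2.H370.Key
import Vale.Agent.P258.R2.H394.Spec

set_option linter.all false

/-!
From the enumeration in `SL(2, p)` and explicit colourings to the conditions `Separates` and
`SeparatesMirror` for the second pattern.
-/

namespace Vale.Agent.P258.Gen

def powN (p x n : ℕ) : ℕ := Nat.rec (motive := fun _ => ℕ) 32769 (fun _ r => mulN p r x) n

def triples : List (ℕ × ℕ × ℕ) :=
  [(0, 1, 26), (1, 2, 25), (2, 3, 31), (4, 3, 11), (5, 4, 10), (6, 5, 9), (7, 6, 8), (7, 8, 29),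
    (9, 8, 6), (10, 9, 5), (11, 10, 4), (12, 11, 3), (13, 12, 22), (14, 13, 21), (15, 14, 20), (16,
    15, 19), (17, 16, 18), (18, 17, 0), (19, 18, 16), (20, 19, 15), (21, 20, 14), (22, 21, 13),
    (23, 22, 12), (24, 23, 31), (24, 25, 2), (25, 26, 1), (26, 27, 0), (28, 27, 7), (28, 29, 8),
    (29, 30, 7), (0, 30, 17), (32, 31, 24), (32, 31, 2)]

def relN (p : ℕ) (L : List ℕ) : Bool :=
  (List.range 33).all (fun i => okN p (L.getD i 0)) &&
    triples.all (fun t => Nat.beq (L.getD t.1 0) (cjN p (L.getD t.2.1 0) (L.getD t.2.2 0)))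

def lamL (p : ℕ) (L : List ℕ) : ℕ :=
  (lamN p (L.getD 26 0) (L.getD 25 0) (L.getD 31 0) (L.getD 11 0) (L.getD 10 0) (L.getD 9 0)
    (L.getD 8 0) (L.getD 29 0) (L.getD 6 0) (L.getD 5 0) (L.getD 4 0) (L.getD 3 0) (L.getD 22 0)
    (L.getD 21 0) (L.getD 20 0) (L.getD 19 0) (L.getD 18 0) (L.getD 0 0) (L.getD 16 0) (L.getD 15
    0) (L.getD 14 0) (L.getD 13 0) (L.getD 12 0) (L.getD 2 0) (L.getD 1 0) (L.getD 7 0) (L.getD 17
    0))

def baseN (m : Bool) (p : ℕ) (L : List ℕ) (N f : ℕ) : Bool :=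
  relN p L && cond m (Nat.beq (lamL p L) (mulN p (L.getD 0 0) (L.getD 0 0)))
      (Nat.beq (mulN p (mulN p (L.getD 0 0) (L.getD 0 0)) (lamL p L)) 32769) &&
    !(Nat.beq (mulN p (L.getD 0 0) (L.getD 0 0)) 32769) &&
    Nat.beq (powN p (mulN p (L.getD 24 0) (invN p (L.getD 2 0))) N) 32769 &&
    Nat.beq (L.getD 31 0) (powN p (mulN p (L.getD 24 0) (invN p (L.getD 2 0))) f)

section

variable {p : ℕ} [NeZero p]

theorem code_pow (hp : p ≤ 32) (h1 : 1 < p) (A : G p) (n : ℕ) :
    code (A ^ n) = powN p (code A) n := by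
  induction n with
  | zero => rw [pow_zero, code_one h1]; rfl
  | succ n ih => rw [pow_succ, code_mul hp, ih]; rfl

theorem exists_patRel (hp : p ≤ 32) (L : List ℕ) (h : relN p L = true) :
    ∃ v : Fin 33 → G p, PatRel v ∧ ∀ i, code (v i) = L.getD i.val 0 := by
  unfold relN at h
  rw [Bool.and_eq_true] at h
  obtain ⟨h2, h3⟩ := h
  have h4 : ∀ i : Fin 33, ∃ A : G p, code A = L.getD i.val 0 := fun i =>
    exists_of_ok _ (List.all_eq_true.1 h2 _ (List.mem_range.2 i.isLt))
  choose v hv using h4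
  have st : ∀ (b a k : Fin 33), (b.val, a.val, k.val) ∈ triples → v b = (v k)⁻¹ * v a * v k := by
    intro b a k ht
    apply code_inj hp
    rw [code_cj hp, hv, hv, hv]
    exact Nat.eq_of_beq_eq_true (List.all_eq_true.1 h3 _ ht)
  refine ⟨v, {
    f0 := st 0 1 26 (by decide)
    f1 := st 1 2 25 (by decide)
    f2 := st 2 3 31 (by decide)
    f3 := st 4 3 11 (by decide)
    f4 := st 5 4 10 (by decide)
    f5 := st 6 5 9 (by decide)
    f6 := st 7 6 8 (by decide)
    f7 := st 7 8 29 (by decide)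
    f8 := st 9 8 6 (by decide)
    f9 := st 10 9 5 (by decide)
    f10 := st 11 10 4 (by decide)
    f11 := st 12 11 3 (by decide)
    f12 := st 13 12 22 (by decide)
    f13 := st 14 13 21 (by decide)
    f14 := st 15 14 20 (by decide)
    f15 := st 16 15 19 (by decide)
    f16 := st 17 16 18 (by decide)
    f17 := st 18 17 0 (by decide)
    f18 := st 19 18 16 (by decide)
    f19 := st 20 19 15 (by decide)
    f20 := st 21 20 14 (by decide)
    f21 := st 22 21 13 (by decide)
    f22 := st 23 22 12 (by decide)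
    f23 := st 24 23 31 (by decide)
    f24 := st 24 25 2 (by decide)
    f25 := st 25 26 1 (by decide)
    f26 := st 26 27 0 (by decide)
    f27 := st 28 27 7 (by decide)
    f28 := st 28 29 8 (by decide)
    f29 := st 29 30 7 (by decide)
    f30 := st 0 30 17 (by decide)
    f31 := st 32 31 24 (by decide)
    f32 := st 32 31 2 (by decide) }, hv⟩

theorem code_lamB (hp : p ≤ 32) (v : Fin 33 → G p) (L : List ℕ)
    (hv : ∀ i, code (v i) = L.getD i.val 0) : code (lamB v) = lamL p L := by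
  unfold lamB lamL lamN
  rw [code_mul hp (_ : G p) (v 0 ^ (-(13 : ℤ))), code_inv13 hp]
  simp only [code_mul hp, code_inv hp, hv]
  rfl

theorem exists_base (hp : p ≤ 32) (h1 : 1 < p) (m : Bool) (L : List ℕ) (N f0 : ℕ)
    (h : baseN m p L N f0 = true) (f : ℤ) (hf : f % (N : ℤ) = (f0 : ℤ)) :
    ∃ ρ : Fin 33 → G p, patternB.IsCol ρ ∧
      cond m (patternB.lonVal ρ patternBK = ρ 0 * ρ 0)
        (ρ 0 * ρ 0 * patternB.lonVal ρ patternBK = 1) ∧ ρ 0 * ρ 0 ≠ 1 ∧
      ρ 31 = patternB.lonVal ρ patternBE ^ f := by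
  unfold baseN at h
  simp only [Bool.and_eq_true] at h
  obtain ⟨⟨⟨⟨h2, h3⟩, h4⟩, h5⟩, h6⟩ := h
  obtain ⟨v, hP, hv⟩ := exists_patRel hp L h2
  have c0 : code (v 0) = L.getD 0 0 := hv 0
  have c24 : code (v 24) = L.getD 24 0 := hv 24
  have c2 : code (v 2) = L.getD 2 0 := hv 2
  have c31 : code (v 31) = L.getD 31 0 := hv 31
  have cl := code_lamB hp v L hv
  have cE : code (v 24 * (v 2)⁻¹) = mulN p (L.getD 24 0) (invN p (L.getD 2 0)) := by
    rw [code_mul hp, code_inv hp, c24, c2]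
  refine ⟨v, isCol_of_patRel v hP, ?_, ?_, ?_⟩
  · rw [lonVal_K]
    cases m
    · simp only [cond_false] at h3 ⊢
      apply code_inj hp
      rw [code_mul hp, code_mul hp, cl, c0, code_one h1]
      exact Nat.eq_of_beq_eq_true h3
    · simp only [cond_true] at h3 ⊢
      apply code_inj hp
      rw [code_mul hp, cl, c0]
      exact Nat.eq_of_beq_eq_true h3
  · intro e
    have e2 := congrArg code e
    rw [code_mul hp, c0, code_one h1] at e2
    rw [Bool.not_eq_true'] at h4
    exact Nat.ne_of_beq_eq_false h4 e2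
  · rw [lonVal_E]
    have e1 : (v 24 * (v 2)⁻¹) ^ N = 1 := by
      apply code_inj hp
      rw [code_pow hp h1, cE, code_one h1]
      exact Nat.eq_of_beq_eq_true h5
    have e2 : v 31 = (v 24 * (v 2)⁻¹) ^ f0 := by
      apply code_inj hp
      rw [code_pow hp h1, cE, c31]
      exact Nat.eq_of_beq_eq_true h6
    have e3 : f = (f0 : ℤ) + (N : ℤ) * (f / (N : ℤ)) := by
      rw [← hf]; exact (Int.emod_add_mul_ediv f (N : ℤ)).symm
    rw [e2, e3, zpow_add, zpow_mul, zpow_natCast, zpow_natCast, e1, one_zpow, mul_one]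

theorem isHom_iff {H : Type} [Group H] (P : Diagram) (ρ : Fin P.n → H) :
    IsHom P ρ ↔ P.IsCol ρ :=
  ⟨fun h a => (P.lift_wirtinger ρ a).1 (h a), fun h a => (P.lift_wirtinger ρ a).2 (h a)⟩

theorem lon_eq {H : Type} [Group H] (P : Diagram) (ρ : Fin P.n → H) (i : Fin P.n) :
    lon P ρ i = P.lonVal ρ i := Diagram.lift_longitude P ρ i

theorem separates {D : Dat} (hp : p ≤ 32) (h1 : 1 < p) (fA : factA p D = true)
    (fO : factO p D = true) (fB : factB p D = true) (fC : factC p D = true)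
    (fD : ∀ l ∈ D.ls, st0 false p D.w (D.comp l) (D.cl l) (D.cen l) (D.rp l) = true)
    (L : List ℕ) (N f0 : ℕ) (h : baseN false p L N f0 = true) (f : ℤ)
    (hf : f % (N : ℤ) = (f0 : ℤ)) : Separates (G p) patternB patternBK patternBE f := by
  refine ⟨fun ρ hρ hE hl => ?_, ?_⟩
  · rw [isHom_iff] at hρ
    rw [lon_eq] at hE hl
    have hl' : ρ patternBK * ρ patternBK = patternB.lonVal ρ patternBK := by
      rw [hl, sq]
    rw [sq]
    exact key hp h1 fA fO fB fC false fD ρ hρ hE hl'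
  · obtain ⟨ρ, g1, g2, g3, g4⟩ := exists_base hp h1 false L N f0 h f hf
    have g2' : ρ 0 * ρ 0 * patternB.lonVal ρ patternBK = 1 := g2
    exact ⟨ρ, (isHom_iff patternB ρ).2 g1,
      (congrArg₂ (· * ·) (sq (ρ 0)) (lon_eq patternB ρ patternBK)).trans g2',
      fun h => g3 ((sq (ρ 0)).symm.trans h),
      g4.trans (congrArg (· ^ f) (lon_eq patternB ρ patternBE).symm)⟩

theorem separatesMirror {D : Dat} (hp : p ≤ 32) (h1 : 1 < p) (fA : factA p D = true)
    (fO : factO p D = true) (fB : factB p D = true) (fC : factC p D = true)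
    (fD : ∀ l ∈ D.ls, st0 true p D.w (D.comp l) (D.cl l) (D.cen l) (D.rp l) = true)
    (L : List ℕ) (N f0 : ℕ) (h : baseN true p L N f0 = true) (f : ℤ)
    (hf : f % (N : ℤ) = (f0 : ℤ)) : SeparatesMirror (G p) patternB patternBK patternBE f := by
  refine ⟨fun ρ hρ hE hl => ?_, ?_⟩
  · rw [isHom_iff] at hρ
    rw [lon_eq] at hE hl
    have hl' : ρ patternBK * ρ patternBK * patternB.lonVal ρ patternBK = 1 := by
      rw [← sq]; exact hl
    rw [sq]
    exact key hp h1 fA fO fB fC true fD ρ hρ hE hl'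
  · obtain ⟨ρ, g1, g2, g3, g4⟩ := exists_base hp h1 true L N f0 h f hf
    have g2' : patternB.lonVal ρ patternBK = ρ 0 * ρ 0 := g2
    exact ⟨ρ, (isHom_iff patternB ρ).2 g1,
      (lon_eq patternB ρ patternBK).trans (g2'.trans (sq (ρ 0)).symm),
      fun h => g3 ((sq (ρ 0)).symm.trans h),
      g4.trans (congrArg (· ^ f) (lon_eq patternB ρ patternBE).symm)⟩

/-- The exponent of the group. -/
def expN (p : ℕ) (E : List ℕ) : Bool :=
  allSL p fun x => Nat.beq (E.foldl (fun y n => force y fun z => powN p z n) x) 32769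

theorem pow_of_expN (hp : p ≤ 32) (h1 : 1 < p) (E : List ℕ) (h : expN p E = true) (A : G p) :
    A ^ E.prod = 1 := by
  have h2 := allSL_sound h A
  have h3 : ∀ (E : List ℕ) (A : G p),
      E.foldl (fun y n => force y fun z => powN p z n) (code A) = code (A ^ E.prod) := by
    intro E
    induction E with
    | nil => intro A; simp
    | cons n E ih =>
      intro A
      rw [List.foldl_cons, force_eq, ← code_pow hp h1, ih, List.prod_cons, pow_mul]
  rw [h3] at h2
  apply code_inj hp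
  rw [code_one h1]
  exact Nat.eq_of_beq_eq_true h2

end

end Vale.Agent.P258.Gen
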