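import Vale.Agent.P258.R2.H370.R11All
import Vale.Agent.P258.R2.H370.Sep

set_option linter.all false

/-!
Row R11: the group `SL(2, 11)` and the second pattern.
-/

namespace Vale.Agent.P258.R11

open Gen

def b5 : List ℕ :=
  [232456, 229384, 237576, 233480, 262247, 302278, 331045, 10276, 233480, 205065, 165034, 136256,
    107841, 305222, 107841, 305222, 107841, 305222, 1348, 231432, 1348, 231432, 1348, 231432,
    235528, 238600, 230408, 233480, 67810, 205065, 331045, 39937, 40961]

theorem b5_ok : baseN false 11 b5 11 5 = true := by decide +kernel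

theorem ex : expN 11 [2, 2, 3, 5, 11] = true := by decide +kernel

theorem rowR11 : RowR11 := by
  refine ⟨fun f hf => ?_, fun g => ?_⟩
  · exact separates (p := 11) (by norm_num) (by norm_num) fA fO fB fC fD b5 11 5 b5_ok f hf
  · exact pow_of_expN (p := 11) (by norm_num) (by norm_num) [2, 2, 3, 5, 11] ex g

end Vale.Agent.P258.R11
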