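import Vale.Agent.P258.R2.H370.R11Data

set_option linter.all false

namespace Vale.Agent.P258.R11

open Gen

def ch2 (l : ℕ) : Bool := Gen.st0 false 11 D.w (D.comp l) (D.cl l) (D.cen l) (D.rp l)

theorem c33 : ch2 33 = true := by decide +kernel

theorem c38 : ch2 38 = true := by decide +kernel

theorem c39 : ch2 39 = true := by decide +kernel

theorem c41 : ch2 41 = true := by decide +kernel

theorem c329 : ch2 329 = true := by decide +kernel

end Vale.Agent.P258.R11
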