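import Vale.Agent.P258.R2.H370.R11Data

set_option linter.all false

namespace Vale.Agent.P258.R11

open Gen

theorem fA : Gen.factA 11 D = true := by decide +kernel

theorem fB : Gen.factB 11 D = true := by decide +kernel

end Vale.Agent.P258.R11
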