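import Vale.Agent.P258.R2.H370.R11Ch0
import Vale.Agent.P258.R2.H370.R11Ch1
import Vale.Agent.P258.R2.H370.R11Ch2
import Vale.Agent.P258.R2.H370.R11Facts

set_option linter.all false

namespace Vale.Agent.P258.R11

open Gen

theorem fD : ∀ l ∈ D.ls, Gen.st0 false 11 D.w (D.comp l) (D.cl l) (D.cen l) (D.rp l) = true := by
  intro l hl
  have hl : l ∈ [32, 33, 34, 35, 36, 37, 38, 39, 40, 41, 42, 322, 329] := hl
  simp only [List.mem_cons, List.not_mem_nil, or_false] at hl
  rcases hl with rfl | rfl | rfl | rfl | rfl | rfl | rfl | rfl | rfl | rfl | rfl | rfl | rfl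
  · exact c32
  · exact c33
  · exact c34
  · exact c35
  · exact c36
  · exact c37
  · exact c38
  · exact c39
  · exact c40
  · exact c41
  · exact c42
  · exact c322
  · exact c329

end Vale.Agent.P258.R11
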