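import Vale.Agent.P258.R2.H370.R11Data

set_option linter.all false

namespace Vale.Agent.P258.R11

open Gen

def ch0 (l : ℕ) : Bool := Gen.st0 false 11 D.w (D.comp l) (D.cl l) (D.cen l) (D.rp l)

theorem c35 : ch0 35 = true := by decide +kernel

theorem c40 : ch0 40 = true := by decide +kernel

theorem c42 : ch0 42 = true := by decide +kernel

end Vale.Agent.P258.R11
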