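import Vale.Agent.P258.R2.H370.R7All
import Vale.Agent.P258.R2.H370.Sep

set_option linter.all false

/-!
Row R7: the group `SL(2, 7)` and the second pattern.
-/

namespace Vale.Agent.P258.R7

open Gen

def b2 : List ℕ :=
  [66694, 67654, 69670, 67654, 166915, 37024, 136292, 6177, 98501, 6177, 136292, 37024, 166915,
    104453, 68806, 66694, 98341, 163971, 164867, 102405, 6177, 98405, 164035, 202850, 201890,
    202850, 199874, 201890, 3137, 71782, 102405, 65540, 33925]

theorem b2_ok : baseN true 7 b2 6 2 = true := by decide +kernel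

def b5 : List ℕ :=
  [66694, 67654, 69670, 67654, 166915, 37024, 136292, 6177, 98501, 6177, 136292, 37024, 166915,
    104453, 68806, 66694, 98341, 163971, 164867, 102405, 6177, 98405, 164035, 202850, 201890,
    202850, 199874, 201890, 3137, 71782, 102405, 163843, 202850]

theorem b5_ok : baseN true 7 b5 6 5 = true := by decide +kernel

def b1 : List ℕ :=
  [165891, 137412, 5249, 6177, 6177, 6177, 6177, 6177, 6177, 6177, 6177, 6177, 6177, 5249, 137412,
    165891, 98309, 164035, 34912, 33984, 136292, 98341, 163843, 103429, 163843, 98341, 136292,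
    33984, 33984, 33984, 33984, 166976, 170016]

theorem b1_ok : baseN true 7 b1 14 1 = true := by decide +kernel

def b8 : List ℕ :=
  [165891, 137412, 5249, 6177, 6177, 6177, 6177, 6177, 6177, 6177, 6177, 6177, 6177, 5249, 137412,
    165891, 98309, 164035, 34912, 33984, 136292, 98341, 163843, 103429, 163843, 98341, 136292,
    33984, 33984, 33984, 33984, 69792, 66752]

theorem b8_ok : baseN true 7 b8 14 8 = true := by decide +kernel

theorem ex : expN 7 [2, 2, 2, 3, 7] = true := by decide +kernel

theorem rowR7 : RowR7 := by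
  refine ⟨fun f hf => ?_, fun g => ?_⟩
  · have h : f % 6 = 2 ∨ f % 6 = 5 ∨ f % 14 = 1 ∨ f % 14 = 8 := by omega
    rcases h with h | h | h | h
    · exact separatesMirror (p := 7) (by norm_num) (by norm_num) fA fO fB fC fD b2 6 2 b2_ok f h
    · exact separatesMirror (p := 7) (by norm_num) (by norm_num) fA fO fB fC fD b5 6 5 b5_ok f h
    · exact separatesMirror (p := 7) (by norm_num) (by norm_num) fA fO fB fC fD b1 14 1 b1_ok f h
    · exact separatesMirror (p := 7) (by norm_num) (by norm_num) fA fO fB fC fD b8 14 8 b8_ok f h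
  · exact pow_of_expN (p := 7) (by norm_num) (by norm_num) [2, 2, 2, 3, 7] ex g

end Vale.Agent.P258.R7
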