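import Vale.Agent.P258.R2.H370.R7Data

set_option linter.all false

namespace Vale.Agent.P258.R7

open Gen

def ch0 (l : ℕ) : Bool := Gen.st0 true 7 D.w (D.comp l) (D.cl l) (D.cen l) (D.rp l)

theorem c32 : ch0 32 = true := by decide +kernel

theorem c33 : ch0 33 = true := by decide +kernel

theorem c34 : ch0 34 = true := by decide +kernel

theorem c35 : ch0 35 = true := by decide +kernel

theorem c36 : ch0 36 = true := by decide +kernel

theorem c37 : ch0 37 = true := by decide +kernel

theorem c38 : ch0 38 = true := by decide +kernel

theorem c194 : ch0 194 = true := by decide +kernel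

theorem c197 : ch0 197 = true := by decide +kernel

end Vale.Agent.P258.R7
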