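import Vale.Agent.P258.R2.H370.Steps

set_option linter.all false

namespace Vale.Agent.P258.Gen

/-- The conjugation relations of a coloured second pattern. -/
structure PatRel {H : Type*} [Group H] (v : Fin 33 → H) : Prop where
  f0 : v 0 = (v 26)⁻¹ * v 1 * v 26
  f1 : v 1 = (v 25)⁻¹ * v 2 * v 25
  f2 : v 2 = (v 31)⁻¹ * v 3 * v 31
  f3 : v 4 = (v 11)⁻¹ * v 3 * v 11
  f4 : v 5 = (v 10)⁻¹ * v 4 * v 10
  f5 : v 6 = (v 9)⁻¹ * v 5 * v 9
  f6 : v 7 = (v 8)⁻¹ * v 6 * v 8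
  f7 : v 7 = (v 29)⁻¹ * v 8 * v 29
  f8 : v 9 = (v 6)⁻¹ * v 8 * v 6
  f9 : v 10 = (v 5)⁻¹ * v 9 * v 5
  f10 : v 11 = (v 4)⁻¹ * v 10 * v 4
  f11 : v 12 = (v 3)⁻¹ * v 11 * v 3
  f12 : v 13 = (v 22)⁻¹ * v 12 * v 22
  f13 : v 14 = (v 21)⁻¹ * v 13 * v 21
  f14 : v 15 = (v 20)⁻¹ * v 14 * v 20
  f15 : v 16 = (v 19)⁻¹ * v 15 * v 19
  f16 : v 17 = (v 18)⁻¹ * v 16 * v 18
  f17 : v 18 = (v 0)⁻¹ * v 17 * v 0
  f18 : v 19 = (v 16)⁻¹ * v 18 * v 16
  f19 : v 20 = (v 15)⁻¹ * v 19 * v 15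
  f20 : v 21 = (v 14)⁻¹ * v 20 * v 14
  f21 : v 22 = (v 13)⁻¹ * v 21 * v 13
  f22 : v 23 = (v 12)⁻¹ * v 22 * v 12
  f23 : v 24 = (v 31)⁻¹ * v 23 * v 31
  f24 : v 24 = (v 2)⁻¹ * v 25 * v 2
  f25 : v 25 = (v 1)⁻¹ * v 26 * v 1
  f26 : v 26 = (v 0)⁻¹ * v 27 * v 0
  f27 : v 28 = (v 7)⁻¹ * v 27 * v 7
  f28 : v 28 = (v 8)⁻¹ * v 29 * v 8
  f29 : v 29 = (v 7)⁻¹ * v 30 * v 7
  f30 : v 0 = (v 17)⁻¹ * v 30 * v 17
  f31 : v 32 = (v 24)⁻¹ * v 31 * v 24
  f32 : v 32 = (v 2)⁻¹ * v 31 * v 2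

theorem code_one {p : ℕ} (hp : 1 < p) : code (1 : G p) = 32769 := by
  haveI : Fact (1 < p) := ⟨hp⟩
  unfold code
  simp [cd_eq, ZMod.val_one]

theorem fwd {p : ℕ} [NeZero p] (hp : p ≤ 32) {a b k : G p} (h : b = k⁻¹ * a * k) :
    code b = cjN p (code a) (code k) := by
  rw [h, code_cj hp]

theorem bwd {p : ℕ} [NeZero p] (hp : p ≤ 32) {a b k : G p} (h : b = k⁻¹ * a * k) :
    code a = ciN p (code b) (code k) := by
  have : a = k * b * k⁻¹ := by rw [h]; group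
  rw [this, code_ci hp]

theorem all_step {l : List ℕ} {x : ℕ} {p : ℕ → Bool} (h : l.all p = true) (hx : x ∈ l) :
    p x = true := List.all_eq_true.1 h x hx

/-- The value of the longitude of `K`. -/
def lamB {H : Type*} [Group H] (v : Fin 33 → H) : H := (((((((((((((((((((((((((((((((v 26)⁻¹ * (v 25)⁻¹) * (v 31)⁻¹) *
    v 11) * v 10) * v 9) * v 8) * (v 29)⁻¹) * v 6) * v 5) * v 4) * v 3) * v 22) * v 21) * v 20) *
    v 19) * v 18) * v 0) * v 16) * v 15) * v 14) * v 13) * v 12) * v 31) * (v 2)⁻¹) * (v 1)⁻¹) *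
    (v 0)⁻¹) * v 7) * (v 8)⁻¹) * (v 7)⁻¹) * v 17) * v 0 ^ (-(13 : ℤ))

theorem sound {p : ℕ} [NeZero p] (hp : p ≤ 32) (h1p : 1 < p) (m : Bool) (w : ℕ → ℕ) (cl cen rp : List ℕ)
    (v : Fin 33 → G p) (h : PatRel v) (hE : v 24 * (v 2)⁻¹ = 1 → v 31 = 1)
    (h29 : code (v 29) ∈ rp) (h23 : code (v 23) ∈ cl)
    (hc : ∃ c ∈ cen, code (v 31) = mulN p (mulN p (invN p (w (code (v 23)))) c)
      (w (code (v 24))))
    (hd : st0 m p w (code (v 7)) cl cen rp = true) :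
    ¬ (cond m (v 0 * v 0 * lamB v = 1) (v 0 * v 0 = lamB v)) := by
  obtain ⟨c, hc, ec⟩ := hc
  unfold st0 at hd
  rw [force_eq] at hd
  unfold st1 at hd
  replace hd := all_step hd h29
  unfold st2 at hd
  rw [force_eq, ← bwd hp h.f7] at hd
  unfold st3 at hd
  rw [force_eq, ← fwd hp h.f28] at hd
  unfold st4 at hd
  rw [force_eq, ← bwd hp h.f29] at hd
  unfold st5 at hd
  rw [force_eq, ← bwd hp h.f6] at hd
  unfold st6 at hd
  rw [force_eq, ← fwd hp h.f8] at hd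
  unfold st7 at hd
  rw [force_eq, ← bwd hp h.f27] at hd
  unfold st8 at hd
  rw [force_eq, ← bwd hp h.f5] at hd
  unfold st9 at hd
  rw [force_eq, ← fwd hp h.f9] at hd
  unfold st10 at hd
  rw [force_eq, ← bwd hp h.f4] at hd
  unfold st11 at hd
  rw [force_eq, ← fwd hp h.f10] at hd
  unfold st12 at hd
  rw [force_eq, ← bwd hp h.f3] at hd
  unfold st13 at hd
  rw [force_eq, ← fwd hp h.f11] at hd
  unfold st14 at hd
  replace hd := all_step hd h23
  unfold st15 at hd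
  rw [force_eq, ← bwd hp h.f22] at hd
  unfold st16 at hd
  rw [force_eq, ← fwd hp h.f12] at hd
  unfold st17 at hd
  rw [force_eq, ← bwd hp h.f21] at hd
  unfold st18 at hd
  rw [force_eq, ← fwd hp h.f13] at hd
  unfold st19 at hd
  rw [force_eq, ← bwd hp h.f20] at hd
  unfold st20 at hd
  rw [force_eq, ← fwd hp h.f14] at hd
  unfold st21 at hd
  rw [force_eq, ← bwd hp h.f19] at hd
  unfold st22 at hd
  rw [force_eq, ← fwd hp h.f15] at hd
  unfold st23 at hd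
  rw [force_eq, ← bwd hp h.f18] at hd
  unfold st24 at hd
  rw [force_eq, ← fwd hp h.f16] at hd
  unfold st25 at hd
  rw [force_eq, ← fwd hp h.f30] at hd
  unfold st26 at hd
  replace hd := test_step hd (fwd hp h.f17)
  unfold st27 at hd
  rw [force_eq, ← fwd hp h.f26] at hd
  unfold st28 at hd
  rw [force_eq, ← bwd hp h.f0] at hd
  unfold st29 at hd
  rw [force_eq, ← fwd hp h.f25] at hd
  unfold st30 at hd
  rw [force_eq, ← bwd hp h.f1] at hd
  unfold st31 at hd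
  rw [force_eq, ← fwd hp h.f24] at hd
  unfold st32 at hd
  replace hd := all_step hd hc
  rw [force_eq, ← ec] at hd
  unfold st33 at hd
  replace hd := test_step hd (fwd hp h.f2)
  unfold st34 at hd
  rw [force_eq, ← fwd hp h.f31] at hd
  unfold st35 at hd
  replace hd := test_step hd (fwd hp h.f32)
  unfold st36 at hd
  have hlamN : lamN p (code (v 26)) (code (v 25)) (code (v 31)) (code (v 11)) (code (v 10))
      (code (v 9)) (code (v 8)) (code (v 29)) (code (v 6)) (code (v 5)) (code (v 4)) (code (v 3))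
      (code (v 22)) (code (v 21)) (code (v 20)) (code (v 19)) (code (v 18)) (code (v 0))
      (code (v 16)) (code (v 15)) (code (v 14)) (code (v 13)) (code (v 12)) (code (v 2))
      (code (v 1)) (code (v 7)) (code (v 17)) = code (lamB v) := by
    unfold lamB lamN
    rw [code_mul hp (_ : G p) (v 0 ^ (-(13 : ℤ))), code_inv13 hp]
    simp only [code_mul hp, code_inv hp]
  rw [hlamN] at hd
  intro hlam
  rw [Bool.or_eq_true] at hd
  rcases hd with hd | hd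
  · rw [Bool.and_eq_true] at hd
    have h1 : v 24 * (v 2)⁻¹ = 1 := code_inj hp (by
      rw [code_mul hp, code_inv hp, code_one h1p]; exact Nat.eq_of_beq_eq_true hd.1)
    have h2 := hd.2
    rw [hE h1, code_one h1p] at h2
    exact absurd h2 (by decide)
  · rw [Bool.not_eq_true'] at hd
    cases m
    · simp only [cond_false] at hd hlam
      rw [← code_mul hp] at hd
      exact Nat.ne_of_beq_eq_false hd (by rw [hlam])
    · simp only [cond_true] at hd hlam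
      rw [← code_mul hp, ← code_mul hp] at hd
      exact Nat.ne_of_beq_eq_false hd (by rw [hlam, code_one h1p])

end Vale.Agent.P258.Gen
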